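/-!
# The pattern checker

Cells of a window of width `34` are numbered by natural numbers; sets of cells are bit masks.
An entry `(d, C, Z, m, kids)` says: Maker, to move, wins within `d` moves in every position in
which, for some offset, Maker owns all cells of `C` and Breaker owns no cell of `Z`. It is proved
by playing the cell `m` and then using one of the kids. A kid is coded as `1024 * index + shift`.
For a terminal entry (no kids) the field `m` encodes the orientation of a copy of Snaky contained
in the core.
-/

namespace Vale.Agent.P062

/-- A pattern with its proof: depth, core, zone, move, kids. -/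
inductive EntryT
  | mk (d C Z m : Nat) (kids : List Nat)

/-- Binary tree of patterns. -/
inductive TreeT
  | leaf (e : EntryT)
  | node (l r : TreeT)

/-- Bit mask inclusion. -/
def subT (a b : Nat) : Bool := Nat.beq (Nat.lor a b) b

/-- Lookup. -/
def TreeT.get : TreeT → Nat → EntryT
  | .leaf e, _ => e
  | .node l r, i => bif Nat.beq (Nat.mod i 2) 0 then l.get (Nat.div i 2) else r.get (Nat.div i 2)

/-- Check the kids of an entry. -/
def kidsOkT (T : TreeT) (d cm all : Nat) : List Nat → Nat → Bool
  | [], acc => subT acc cm
  | k :: ks, acc =>
    match T.get (Nat.div k 1024) with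
    | .mk d' C Z _ _ =>
      Nat.ble (d' + 1) d && (Nat.ble (Nat.mod (Nat.mod k 1024) 34) 17 &&
        (subT (Nat.shiftLeft C (Nat.mod k 1024)) cm &&
          (subT (Nat.shiftLeft Z (Nat.mod k 1024)) all &&
            kidsOkT T d cm all ks (Nat.land acc (Nat.shiftLeft Z (Nat.mod k 1024))))))

/-- The eight orientations of Snaky as bit masks. -/
def shapeT : Nat → Nat
  | 0 => 174224571878732300496281699728222295425025
  | 1 => 87112285936830849047831965013750367387650
  | 2 => 87112285946972053849952948130886165987330
  | 3 => 174224571873661698095663930027449195167745
  | 4 => 412316860431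
  | 5 => 257698037784
  | 6 => 51539607582
  | _ => 515396075523

/-- The first `17` columns of the first `17` rows. -/
def colMask : Nat := 7547867263985856249891358892209598926861561087369995038308821987530528029618056111336931360730067824482469201926137017977809771175047529543614509627517281756474842939391

/-- Check an entry. -/
def entryOkT (T : TreeT) : EntryT → Bool
  | .mk _ C Z m [] => subT (Nat.lor C Z) colMask && subT (shapeT (Nat.mod m 8)) C
  | .mk d C Z m (k :: ks) =>
    subT (Nat.lor C Z) colMask && (subT (Nat.pow 2 m) Z &&
      kidsOkT T d (Nat.lor C (Nat.pow 2 m)) (Nat.lor Z (Nat.lor C (Nat.pow 2 m))) (k :: ks)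
        (Nat.lor Z (Nat.lor C (Nat.pow 2 m))))

/-- Check all entries of a tree. -/
def checkTreeT (T : TreeT) : TreeT → Bool
  | .leaf e => entryOkT T e
  | .node l r => checkTreeT T l && checkTreeT T r

theorem and_trueT {a b : Bool} (ha : a = true) (hb : b = true) : (a && b) = true := by
  rw [ha, hb]; rfl

end Vale.Agent.P062
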