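import Vale.Agent.P062.PatT
import Vale.Agent.P062.CoreT

/-!
# Soundness of the pattern checker
-/

namespace Vale.Agent.P062

theorem cellT_injective : Function.Injective cellT := by
  intro i j h
  simp only [cellT, Prod.mk.injEq, Nat.cast_inj] at h
  omega

theorem cellT_shift (s i : ℕ) (h1 : s % 34 ≤ 17) (h2 : i % 34 < 17) :
    cellT (s + i) = cellT s + cellT i := by
  have h3 : (s + i) / 34 = s / 34 + i / 34 := by omega
  have h4 : (s + i) % 34 = s % 34 + i % 34 := by omega
  simp only [cellT, h3, h4, Nat.cast_add, Prod.mk_add_mk]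

theorem subT_sound {a b : ℕ} (h : subT a b = true) {i : ℕ} (hi : a.testBit i = true) :
    b.testBit i = true := by
  have h' : a ||| b = b := Nat.eq_of_beq_eq_true h
  rw [← h', Nat.testBit_or, hi, Bool.true_or]

theorem testBit_shiftT {a s i : ℕ} (hi : a.testBit i = true) :
    (Nat.shiftLeft a s).testBit (s + i) = true := by
  change (a <<< s).testBit (s + i) = true
  rw [Nat.testBit_shiftLeft]
  simp [hi]

theorem testBit_shiftT_eq {a s j : ℕ} (hj : (Nat.shiftLeft a s).testBit j = true) :
    ∃ i, j = s + i ∧ a.testBit i = true := by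
  change (a <<< s).testBit j = true at hj
  rw [Nat.testBit_shiftLeft, Bool.and_eq_true, decide_eq_true_eq] at hj
  exact ⟨j - s, by omega, hj.2⟩

theorem colMask_testBit {i : ℕ} (h : colMask.testBit i = true) : i % 34 < 17 := by
  have hlt : i < 17 * 34 := by
    by_contra hcon
    have h1 : colMask.testBit i = false := by
      apply Nat.testBit_lt_two_pow
      refine lt_of_lt_of_le ?_ (Nat.pow_le_pow_right (by norm_num) (not_lt.1 hcon))
      decide +kernel
    rw [h1] at h
    exact absurd h (by decide)
  have key : ∀ j < 17 * 34, colMask.testBit j = true → j % 34 < 17 := by decide +kernel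
  exact key i hlt h

/-- Entry claims a true pattern. -/
def EntryT.Good : EntryT → Prop
  | .mk d C Z _ _ => PatT d C Z

/-- Depth. -/
def EntryT.depth : EntryT → ℕ
  | .mk d _ _ _ _ => d

/-- Leaves of a tree. -/
def TreeT.Mem (e : EntryT) : TreeT → Prop
  | .leaf e' => e' = e
  | .node l r => l.Mem e ∨ r.Mem e

theorem TreeT.get_mem (T : TreeT) (i : ℕ) : T.Mem (T.get i) := by
  induction T generalizing i with
  | leaf e => rfl
  | node l r ihl ihr =>
    simp only [TreeT.get]
    cases h : Nat.beq (Nat.mod i 2) 0
    · exact Or.inr (ihr _)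
    · exact Or.inl (ihl _)

theorem copy_aux {M : Finset Cell} {R : Cell → Cell} (hR : IsSignedPermutation R) (tv : Cell)
    (h : ∀ p ∈ snaky, tv + R p ∈ M) : HasCopy M :=
  ⟨_, ⟨R, tv, hR, rfl⟩, by rintro _ ⟨p, hp, rfl⟩; exact h p hp⟩

theorem mem_of_eqT {M : Finset Cell} {c : Cell} {x y : ℤ} (h : (x, y) ∈ M) (h1 : c.1 = x)
    (h2 : c.2 = y) : c ∈ M := by
  subst h1 h2
  exact h

theorem copy_of_shapeT {M : Finset Cell} {v : Cell} {t : ℕ} (ht : t < 8)
    (h : ∀ i, (shapeT t).testBit i = true → v + cellT i ∈ M) : HasCopy M := by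
  obtain ⟨x, y⟩ := v
  have key : ∀ a b : ℕ, b < 34 → (shapeT t).testBit (a * 34 + b) = true →
      ((x + a, y + b) : Cell) ∈ M := by
    intro a b hb hab
    have h1 := h _ hab
    have h2 : (a * 34 + b) / 34 = a := by omega
    have h3 : (a * 34 + b) % 34 = b := by omega
    simpa only [cellT, h2, h3, Prod.mk_add_mk] using h1
  interval_cases t
  · refine copy_aux (R := fun p => (1 * p.1, 1 * p.2)) ⟨1, 1, by simp, by simp, Or.inl (by simp)⟩
      (x + 0, y + 0) ?_
    intro p hp
    simp only [snaky, Set.mem_insert_iff, Set.mem_singleton_iff] at hp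
    rcases hp with rfl | rfl | rfl | rfl | rfl | rfl
    · exact mem_of_eqT (key 0 0 (by norm_num) (by decide)) (by simp; try ring) (by simp; try ring)
    · exact mem_of_eqT (key 1 0 (by norm_num) (by decide)) (by simp; try ring) (by simp; try ring)
    · exact mem_of_eqT (key 2 0 (by norm_num) (by decide)) (by simp; try ring) (by simp; try ring)
    · exact mem_of_eqT (key 3 0 (by norm_num) (by decide)) (by simp; try ring) (by simp; try ring)
    · exact mem_of_eqT (key 3 1 (by norm_num) (by decide)) (by simp; try ring) (by simp; try ring)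
    · exact mem_of_eqT (key 4 1 (by norm_num) (by decide)) (by simp; try ring) (by simp; try ring)
  · refine copy_aux (R := fun p => (-1 * p.1, 1 * p.2)) ⟨-1, 1, by simp, by simp, Or.inl (by simp)⟩
      (x + 4, y + 0) ?_
    intro p hp
    simp only [snaky, Set.mem_insert_iff, Set.mem_singleton_iff] at hp
    rcases hp with rfl | rfl | rfl | rfl | rfl | rfl
    · exact mem_of_eqT (key 4 0 (by norm_num) (by decide)) (by simp; try ring) (by simp; try ring)
    · exact mem_of_eqT (key 3 0 (by norm_num) (by decide)) (by simp; try ring) (by simp; try ring)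
    · exact mem_of_eqT (key 2 0 (by norm_num) (by decide)) (by simp; try ring) (by simp; try ring)
    · exact mem_of_eqT (key 1 0 (by norm_num) (by decide)) (by simp; try ring) (by simp; try ring)
    · exact mem_of_eqT (key 1 1 (by norm_num) (by decide)) (by simp; try ring) (by simp; try ring)
    · exact mem_of_eqT (key 0 1 (by norm_num) (by decide)) (by simp; try ring) (by simp; try ring)
  · refine copy_aux (R := fun p => (1 * p.1, -1 * p.2)) ⟨1, -1, by simp, by simp, Or.inl (by simp)⟩
      (x + 0, y + 1) ?_
    intro p hp
    simp only [snaky, Set.mem_insert_iff, Set.mem_singleton_iff] at hp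
    rcases hp with rfl | rfl | rfl | rfl | rfl | rfl
    · exact mem_of_eqT (key 0 1 (by norm_num) (by decide)) (by simp; try ring) (by simp; try ring)
    · exact mem_of_eqT (key 1 1 (by norm_num) (by decide)) (by simp; try ring) (by simp; try ring)
    · exact mem_of_eqT (key 2 1 (by norm_num) (by decide)) (by simp; try ring) (by simp; try ring)
    · exact mem_of_eqT (key 3 1 (by norm_num) (by decide)) (by simp; try ring) (by simp; try ring)
    · exact mem_of_eqT (key 3 0 (by norm_num) (by decide)) (by simp; try ring) (by simp; try ring)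
    · exact mem_of_eqT (key 4 0 (by norm_num) (by decide)) (by simp; try ring) (by simp; try ring)
  · refine copy_aux (R := fun p => (-1 * p.1, -1 * p.2)) ⟨-1, -1, by simp, by simp, Or.inl (by simp)⟩
      (x + 4, y + 1) ?_
    intro p hp
    simp only [snaky, Set.mem_insert_iff, Set.mem_singleton_iff] at hp
    rcases hp with rfl | rfl | rfl | rfl | rfl | rfl
    · exact mem_of_eqT (key 4 1 (by norm_num) (by decide)) (by simp; try ring) (by simp; try ring)
    · exact mem_of_eqT (key 3 1 (by norm_num) (by decide)) (by simp; try ring) (by simp; try ring)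
    · exact mem_of_eqT (key 2 1 (by norm_num) (by decide)) (by simp; try ring) (by simp; try ring)
    · exact mem_of_eqT (key 1 1 (by norm_num) (by decide)) (by simp; try ring) (by simp; try ring)
    · exact mem_of_eqT (key 1 0 (by norm_num) (by decide)) (by simp; try ring) (by simp; try ring)
    · exact mem_of_eqT (key 0 0 (by norm_num) (by decide)) (by simp; try ring) (by simp; try ring)
  · refine copy_aux (R := fun p => (1 * p.2, 1 * p.1)) ⟨1, 1, by simp, by simp, Or.inr (by simp)⟩
      (x + 0, y + 0) ?_
    intro p hp
    simp only [snaky, Set.mem_insert_iff, Set.mem_singleton_iff] at hp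
    rcases hp with rfl | rfl | rfl | rfl | rfl | rfl
    · exact mem_of_eqT (key 0 0 (by norm_num) (by decide)) (by simp; try ring) (by simp; try ring)
    · exact mem_of_eqT (key 0 1 (by norm_num) (by decide)) (by simp; try ring) (by simp; try ring)
    · exact mem_of_eqT (key 0 2 (by norm_num) (by decide)) (by simp; try ring) (by simp; try ring)
    · exact mem_of_eqT (key 0 3 (by norm_num) (by decide)) (by simp; try ring) (by simp; try ring)
    · exact mem_of_eqT (key 1 3 (by norm_num) (by decide)) (by simp; try ring) (by simp; try ring)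
    · exact mem_of_eqT (key 1 4 (by norm_num) (by decide)) (by simp; try ring) (by simp; try ring)
  · refine copy_aux (R := fun p => (-1 * p.2, 1 * p.1)) ⟨-1, 1, by simp, by simp, Or.inr (by simp)⟩
      (x + 1, y + 0) ?_
    intro p hp
    simp only [snaky, Set.mem_insert_iff, Set.mem_singleton_iff] at hp
    rcases hp with rfl | rfl | rfl | rfl | rfl | rfl
    · exact mem_of_eqT (key 1 0 (by norm_num) (by decide)) (by simp; try ring) (by simp; try ring)
    · exact mem_of_eqT (key 1 1 (by norm_num) (by decide)) (by simp; try ring) (by simp; try ring)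
    · exact mem_of_eqT (key 1 2 (by norm_num) (by decide)) (by simp; try ring) (by simp; try ring)
    · exact mem_of_eqT (key 1 3 (by norm_num) (by decide)) (by simp; try ring) (by simp; try ring)
    · exact mem_of_eqT (key 0 3 (by norm_num) (by decide)) (by simp; try ring) (by simp; try ring)
    · exact mem_of_eqT (key 0 4 (by norm_num) (by decide)) (by simp; try ring) (by simp; try ring)
  · refine copy_aux (R := fun p => (1 * p.2, -1 * p.1)) ⟨1, -1, by simp, by simp, Or.inr (by simp)⟩
      (x + 0, y + 4) ?_
    intro p hp
    simp only [snaky, Set.mem_insert_iff, Set.mem_singleton_iff] at hp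
    rcases hp with rfl | rfl | rfl | rfl | rfl | rfl
    · exact mem_of_eqT (key 0 4 (by norm_num) (by decide)) (by simp; try ring) (by simp; try ring)
    · exact mem_of_eqT (key 0 3 (by norm_num) (by decide)) (by simp; try ring) (by simp; try ring)
    · exact mem_of_eqT (key 0 2 (by norm_num) (by decide)) (by simp; try ring) (by simp; try ring)
    · exact mem_of_eqT (key 0 1 (by norm_num) (by decide)) (by simp; try ring) (by simp; try ring)
    · exact mem_of_eqT (key 1 1 (by norm_num) (by decide)) (by simp; try ring) (by simp; try ring)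
    · exact mem_of_eqT (key 1 0 (by norm_num) (by decide)) (by simp; try ring) (by simp; try ring)
  · refine copy_aux (R := fun p => (-1 * p.2, -1 * p.1)) ⟨-1, -1, by simp, by simp, Or.inr (by simp)⟩
      (x + 1, y + 4) ?_
    intro p hp
    simp only [snaky, Set.mem_insert_iff, Set.mem_singleton_iff] at hp
    rcases hp with rfl | rfl | rfl | rfl | rfl | rfl
    · exact mem_of_eqT (key 1 4 (by norm_num) (by decide)) (by simp; try ring) (by simp; try ring)
    · exact mem_of_eqT (key 1 3 (by norm_num) (by decide)) (by simp; try ring) (by simp; try ring)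
    · exact mem_of_eqT (key 1 2 (by norm_num) (by decide)) (by simp; try ring) (by simp; try ring)
    · exact mem_of_eqT (key 1 1 (by norm_num) (by decide)) (by simp; try ring) (by simp; try ring)
    · exact mem_of_eqT (key 0 1 (by norm_num) (by decide)) (by simp; try ring) (by simp; try ring)
    · exact mem_of_eqT (key 0 0 (by norm_num) (by decide)) (by simp; try ring) (by simp; try ring)

theorem kidsOkT_sound {T : TreeT} {d cm all : ℕ} (ks : List ℕ) (acc : ℕ)
    (h : kidsOkT T d cm all ks acc = true) :
    (∀ k ∈ ks, ∃ d' C Z m' l, T.get (k / 1024) = .mk d' C Z m' l ∧ d' < d ∧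
      k % 1024 % 34 ≤ 17 ∧ subT (Nat.shiftLeft C (k % 1024)) cm = true ∧
      subT (Nat.shiftLeft Z (k % 1024)) all = true) ∧
    ∀ i, acc.testBit i = true → cm.testBit i = false →
      ∃ k ∈ ks, ∃ d' C Z m' l, T.get (k / 1024) = .mk d' C Z m' l ∧
        (Nat.shiftLeft Z (k % 1024)).testBit i = false := by
  induction ks generalizing acc with
  | nil =>
    refine ⟨by simp, fun i hi hcm => ?_⟩
    rw [kidsOkT] at h
    rw [subT_sound h hi] at hcm
    exact absurd hcm (by simp)
  | cons k ks ih =>
    rw [kidsOkT] at h
    obtain ⟨d', C, Z, m', l, hk⟩ : ∃ d' C Z m' l, T.get (k / 1024) = .mk d' C Z m' l := by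
      rcases T.get (k / 1024) with ⟨d', C, Z, m', l⟩
      exact ⟨_, _, _, _, _, rfl⟩
    have hk' : T.get (Nat.div k 1024) = .mk d' C Z m' l := hk
    rw [hk'] at h
    simp only [Bool.and_eq_true] at h
    obtain ⟨h1, h0, h2, h3, h4⟩ := h
    have h1' : d' + 1 ≤ d := Nat.le_of_ble_eq_true h1
    have h0' : k % 1024 % 34 ≤ 17 := Nat.le_of_ble_eq_true h0
    obtain ⟨i1, i2⟩ := ih _ h4
    refine ⟨?_, fun i hi hcm => ?_⟩
    · intro k' hk'
      rcases List.mem_cons.1 hk' with rfl | hk'
      · exact ⟨d', C, Z, m', l, hk, h1', h0', h2, h3⟩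
      · exact i1 k' hk'
    · by_cases hz : (Nat.shiftLeft Z (k % 1024)).testBit i = true
      · obtain ⟨k', hk', hh⟩ := i2 i (by
          change (acc &&& (Nat.shiftLeft Z (k % 1024))).testBit i = true
          rw [Nat.testBit_and, hi, hz]; rfl) hcm
        exact ⟨k', List.mem_cons_of_mem _ hk', hh⟩
      · exact ⟨k, List.mem_cons_self, d', C, Z, m', l, hk, by simpa using hz⟩

/-- The masks of an entry lie in the first `17` columns. -/
def EntryT.Narrow : EntryT → Prop
  | .mk _ C Z _ _ => ∀ i, (C.testBit i = true ∨ Z.testBit i = true) → i % 34 < 17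

theorem EntryT.narrow_of_ok {T : TreeT} {e : EntryT} (h : entryOkT T e = true) : e.Narrow := by
  obtain ⟨d, C, Z, m, kids⟩ := e
  have h1 : subT (Nat.lor C Z) colMask = true := by
    cases kids with
    | nil => rw [entryOkT, Bool.and_eq_true] at h; exact h.1
    | cons k ks => rw [entryOkT, Bool.and_eq_true] at h; exact h.1
  intro i hi
  refine colMask_testBit (subT_sound h1 ?_)
  change (C ||| Z).testBit i = true
  rw [Nat.testBit_or, Bool.or_eq_true]
  exact hi

theorem entry_soundT {T : TreeT} (hT : ∀ e, T.Mem e → entryOkT T e = true) :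
    ∀ n, ∀ e, T.Mem e → e.depth = n → e.Good := by
  intro n
  induction n using Nat.strong_induction_on with
  | _ n ih =>
    intro e he hn
    have hok := hT e he
    obtain ⟨d, C, Z, m, kids⟩ := e
    simp only [EntryT.depth] at hn
    subst hn
    intro v M B hMB hsat
    obtain ⟨hC, hZ⟩ := hsat
    cases kids with
    | nil =>
      rw [entryOkT, Bool.and_eq_true] at hok
      exact WinsIn.of_hasCopy (copy_of_shapeT (t := m % 8) (Nat.mod_lt _ (by norm_num))
        fun i hi => hC i (subT_sound hok.2 hi))
    | cons k0 ks =>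
      rw [entryOkT, Bool.and_eq_true, Bool.and_eq_true] at hok
      obtain ⟨-, hm, hk⟩ := hok
      set cm : ℕ := Nat.lor C (Nat.pow 2 m) with hcm
      have hmZ : Z.testBit m = true := subT_sound hm (by
        change (2 ^ m).testBit m = true
        exact Nat.testBit_two_pow_self)
      have hcm' : ∀ i, cm.testBit i = true ↔ (C.testBit i = true ∨ m = i) := by
        intro i
        change (C ||| 2 ^ m).testBit i = true ↔ _
        rw [Nat.testBit_or, Bool.or_eq_true, Nat.testBit_two_pow, decide_eq_true_eq]
      have hall : ∀ i, (Nat.lor Z cm).testBit i = true ↔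
          (Z.testBit i = true ∨ cm.testBit i = true) := by
        intro i
        change (Z ||| cm).testBit i = true ↔ _
        rw [Nat.testBit_or, Bool.or_eq_true]
      obtain ⟨hk1, hk2⟩ := kidsOkT_sound _ _ hk
      -- the depth is a successor
      obtain ⟨d0, C0, Z0, m0, l0, hk0, hd0, -, -, -⟩ := hk1 k0 List.mem_cons_self
      obtain ⟨d1, rfl⟩ : ∃ d1, d = d1 + 1 := ⟨d - 1, by omega⟩
      -- choose the cell to play
      obtain ⟨c, hcM, hcB, hc⟩ : ∃ c, c ∉ M ∧ c ∉ B ∧ (∀ i, cm.testBit i = true →
          v + cellT i ∈ insert c M) := by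
        by_cases hmM : v + cellT m ∈ M
        · obtain ⟨c, hcM, hcB⟩ := exists_free M B
          refine ⟨c, hcM, hcB, fun i hi => Finset.mem_insert_of_mem ?_⟩
          rcases (hcm' i).1 hi with hi | rfl
          · exact hC i hi
          · exact hmM
        · refine ⟨v + cellT m, hmM, hZ m hmZ, fun i hi => ?_⟩
          rcases (hcm' i).1 hi with hi | rfl
          · exact Finset.mem_insert_of_mem (hC i hi)
          · exact Finset.mem_insert_self _ _
      refine Or.inr ⟨c, hcM, hcB, fun b hb hbB => ?_⟩
      -- choose the kid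
      have hex : ∃ k ∈ (k0 :: ks), ∃ d' C' Z' m' l', T.get (k / 1024) = .mk d' C' Z' m' l' ∧
          ∀ i, (Nat.shiftLeft Z' (k % 1024)).testBit i = true → cm.testBit i = false →
            v + cellT i ≠ b := by
        by_cases hbi : ∃ i, (Nat.lor Z cm).testBit i = true ∧ v + cellT i = b
        · obtain ⟨i, hi, rfl⟩ := hbi
          have hcmi : cm.testBit i = false := by
            by_contra hcon
            exact hb (hc i (by simpa using hcon))
          obtain ⟨k, hk, d', C', Z', m', l', hkk, hz⟩ := hk2 i hi hcmi
          refine ⟨k, hk, d', C', Z', m', l', hkk, fun j hj _ hji => ?_⟩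
          rw [cellT_injective (add_left_cancel hji), hz] at hj
          exact absurd hj (by simp)
        · refine ⟨k0, List.mem_cons_self, d0, C0, Z0, m0, l0, hk0, fun j hj _ hji => ?_⟩
          obtain ⟨d', C', Z', m', l', hkk, -, -, -, hZs⟩ := hk1 k0 List.mem_cons_self
          rw [hk0] at hkk
          obtain ⟨rfl, rfl, rfl, rfl, rfl⟩ := EntryT.mk.inj hkk
          exact hbi ⟨j, subT_sound hZs hj, hji⟩
      obtain ⟨k, hkmem, d', C', Z', m', l', hkk, hkb⟩ := hex
      obtain ⟨d'', C'', Z'', m'', l'', hkk', hd', hs, hCs, hZs⟩ := hk1 k hkmem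
      rw [hkk] at hkk'
      obtain ⟨rfl, rfl, rfl, rfl, rfl⟩ := EntryT.mk.inj hkk'
      have hgood : PatT d' C' Z' := by
        have := ih d' hd' (T.get (k / 1024)) (T.get_mem _) (by rw [hkk]; rfl)
        rw [hkk] at this
        exact this
      have hnar : ∀ i, (C'.testBit i = true ∨ Z'.testBit i = true) → i % 34 < 17 := by
        have := EntryT.narrow_of_ok (hT _ (T.get_mem (k / 1024)))
        rw [hkk] at this
        exact this
      have hoff : ∀ i, (C'.testBit i = true ∨ Z'.testBit i = true) →
          v + cellT (k % 1024) + cellT i = v + cellT (k % 1024 + i) := by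
        intro i hi
        rw [cellT_shift _ _ hs (hnar i hi), add_assoc]
      refine WinsIn.mono (n := d') (by omega) (hgood (v + cellT (k % 1024)) _ _ ?_ ⟨?_, ?_⟩)
      · intro x hx hxB
        rcases Finset.mem_insert.1 hxB with rfl | hxB
        · exact hb hx
        · rcases Finset.mem_insert.1 hx with rfl | hx
          · exact hcB hxB
          · exact hMB x hx hxB
      · intro i hi
        rw [hoff i (Or.inl hi)]
        exact hc _ (subT_sound hCs (testBit_shiftT hi))
      · intro i hi hmem
        rw [hoff i (Or.inr hi)] at hmem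
        have hi' := testBit_shiftT (s := k % 1024) hi
        by_cases hcmi : cm.testBit (k % 1024 + i) = true
        · have h1 := hc _ hcmi
          rcases Finset.mem_insert.1 hmem with h2 | h2
          · rw [h2] at h1
            exact hb h1
          · rcases Finset.mem_insert.1 h1 with h3 | h3
            · rw [h3] at h2
              exact hcB h2
            · exact hMB _ h3 h2
        · rcases Finset.mem_insert.1 hmem with h2 | h2
          · exact hkb _ hi' (by simpa using hcmi) h2
          · rcases (hall _).1 (subT_sound hZs hi') with h3 | h3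
            · exact hZ _ h3 h2
            · exact hcmi h3

theorem checkTreeT_sound {T : TreeT} : ∀ S : TreeT, checkTreeT T S = true →
    ∀ e, S.Mem e → entryOkT T e = true := by
  intro S
  induction S with
  | leaf e' =>
    intro h e he
    simp only [TreeT.Mem] at he
    subst he
    exact h
  | node l r ihl ihr =>
    intro h e he
    rw [checkTreeT, Bool.and_eq_true] at h
    rcases he with he | he
    · exact ihl h.1 e he
    · exact ihr h.2 e he

/-- Main soundness statement: a pattern in a checked tree is true. -/
theorem patT_of_check {T : TreeT} (hT : checkTreeT T T = true) (k d C Z m : ℕ) (l : List ℕ)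
    (hk : T.get k = .mk d C Z m l) : PatT d C Z := by
  have := entry_soundT (checkTreeT_sound T hT) _ (T.get k) (T.get_mem k) rfl
  rw [hk] at this
  exact this

end Vale.Agent.P062
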