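import Vale.Agent.P062.Sound

/-!
# Translation-invariant patterns
-/

namespace Vale.Agent.P062

/-- The cell with number `i` in a window of width `34`. -/
def cellT (i : ℕ) : Cell := (((i / 34 : ℕ) : ℤ), ((i % 34 : ℕ) : ℤ))

/-- The position `(M, B)` satisfies, at offset `v`, the pattern with core `C` and zone `Z`. -/
def SatAt (v : Cell) (C Z : ℕ) (M B : Finset Cell) : Prop :=
  (∀ i, C.testBit i = true → v + cellT i ∈ M) ∧ (∀ i, Z.testBit i = true → v + cellT i ∉ B)

/-- The pattern `(C, Z)` is won within `d` moves, at every offset. -/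
def PatT (d C Z : ℕ) : Prop :=
  ∀ (v : Cell) (M B : Finset Cell), (∀ c, c ∈ M → c ∉ B) → SatAt v C Z M B → WinsIn d M B

theorem PatT.mono {d d' C Z : ℕ} (h : PatT d C Z) (hd : d ≤ d') : PatT d' C Z :=
  fun v M B hMB hsat => WinsIn.mono hd (h v M B hMB hsat)

end Vale.Agent.P062
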