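import Vale.Agent.P062.Sym
import Vale.Agent.P062.PatT

/-!
# The first move: symmetry and the root patterns
-/

namespace Vale.Agent.P062

/-- Whether the cell `(r, k)` of the window lies in the zone. -/
def inZone (Z : ℕ) (r k : ℤ) : Bool :=
  decide (0 ≤ r) && (decide (0 ≤ k) && (decide (k < 34) && Nat.testBit Z (r.toNat * 34 + k.toNat)))

/-- The cell `b` avoids the zone of the root pattern `(c, Z)` placed with its core at the origin. -/
def avoids (c Z : ℕ) (b : Cell) : Bool :=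
  !(inZone Z (b.1 + ((c / 34 : ℕ) : ℤ)) (b.2 + ((c % 34 : ℕ) : ℤ)))

/-- Some symmetric image of `b` avoids some root zone. -/
def covered (roots : List (ℕ × ℕ)) (b : Cell) : Bool :=
  [false, true].any fun w => [1, -1].any fun s => [1, -1].any fun t =>
    roots.any fun cz => avoids cz.1 cz.2 (sp w s t b)

/-- Coverage of all Breaker replies near the origin, up to symmetry. -/
def coverOk (roots : List (ℕ × ℕ)) : Bool :=
  (List.range 17).all fun p => (List.range 17).all fun q =>
    (Nat.beq p 0 && Nat.beq q 0) || covered roots ((p : ℤ), (q : ℤ))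

theorem inZone_of {Z i : ℕ} (hi : Z.testBit i = true) :
    inZone Z ((i / 34 : ℕ) : ℤ) ((i % 34 : ℕ) : ℤ) = true := by
  have h3 : (((i % 34 : ℕ) : ℤ)) < 34 := by
    have : i % 34 < 34 := Nat.mod_lt _ (by norm_num)
    exact_mod_cast this
  have h4 : (i / 34) * 34 + i % 34 = i := by omega
  simp only [inZone, Int.toNat_natCast, h4, hi, h3, Int.natCast_nonneg, decide_true, Bool.and_self]

theorem avoids_sound {c Z : ℕ} {b : Cell} (h : avoids c Z b = true) (i : ℕ)
    (hi : Z.testBit i = true) : -cellT c + cellT i ≠ b := by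
  intro hb
  have e1 : b.1 + ((c / 34 : ℕ) : ℤ) = ((i / 34 : ℕ) : ℤ) := by
    rw [← hb]; simp only [cellT, Prod.fst_add, Prod.fst_neg]; ring
  have e2 : b.2 + ((c % 34 : ℕ) : ℤ) = ((i % 34 : ℕ) : ℤ) := by
    rw [← hb]; simp only [cellT, Prod.snd_add, Prod.snd_neg]; ring
  rw [avoids, e1, e2, inZone_of hi] at h
  exact absurd h (by decide)

theorem avoids_of_large {c Z m : ℕ} {b : Cell} (hm : m ≤ 17 * 34) (hZ : Z < 2 ^ m)
    (hb : 17 ≤ b.1) : avoids c Z b = true := by
  rw [avoids, Bool.not_eq_true', inZone]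
  by_cases h1 : 0 ≤ b.1 + ((c / 34 : ℕ) : ℤ)
  · have h2 : 17 ≤ (b.1 + ((c / 34 : ℕ) : ℤ)).toNat := by omega
    have h3 : Z.testBit ((b.1 + ((c / 34 : ℕ) : ℤ)).toNat * 34
        + (b.2 + ((c % 34 : ℕ) : ℤ)).toNat) = false := by
      apply Nat.testBit_lt_two_pow
      refine lt_of_lt_of_le hZ (Nat.pow_le_pow_right (by norm_num) ?_)
      omega
    rw [h3, Bool.and_false, Bool.and_false, Bool.and_false]
  · rw [decide_eq_false h1, Bool.false_and]

theorem sp_zero (w : Bool) (s t : ℤ) : sp w s t 0 = 0 := by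
  cases w <;> simp [sp]

theorem sp_involutive_exists {w : Bool} {s t : ℤ} (hs : s = 1 ∨ s = -1) (ht : t = 1 ∨ t = -1)
    (b : Cell) : ∃ R : Cell → Cell, IsSignedPermutation R ∧ R 0 = 0 ∧ R (sp w s t b) = b := by
  cases w
  · refine ⟨sp false s t, sp_isSignedPermutation hs ht, sp_zero _ _ _, ?_⟩
    obtain ⟨x, y⟩ := b
    rcases hs with rfl | rfl <;> rcases ht with rfl | rfl <;> simp [sp]
  · refine ⟨sp true t s, sp_isSignedPermutation ht hs, sp_zero _ _ _, ?_⟩
    obtain ⟨x, y⟩ := b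
    rcases hs with rfl | rfl <;> rcases ht with rfl | rfl <;> simp [sp]

/-- Some image of `b` avoids a root zone. -/
theorem exists_avoids {roots : List (ℕ × ℕ)} {m : ℕ} (hm : m ≤ 17 * 34)
    (hZ : ∀ cz ∈ roots, cz.2 < 2 ^ m) (hne : roots ≠ []) (hcov : coverOk roots = true) {b : Cell} (hb : b ≠ 0) :
    ∃ (w : Bool) (s t : ℤ), (s = 1 ∨ s = -1) ∧ (t = 1 ∨ t = -1) ∧
      ∃ cz ∈ roots, avoids cz.1 cz.2 (sp w s t b) = true := by
  obtain ⟨x, y⟩ := b
  -- signs making both coordinates nonnegative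
  obtain ⟨sx, hsx, hx⟩ : ∃ s : ℤ, (s = 1 ∨ s = -1) ∧ s * x = (x.natAbs : ℤ) := by
    rcases le_total 0 x with h | h
    · exact ⟨1, Or.inl rfl, by omega⟩
    · exact ⟨-1, Or.inr rfl, by omega⟩
  obtain ⟨sy, hsy, hy⟩ : ∃ s : ℤ, (s = 1 ∨ s = -1) ∧ s * y = (y.natAbs : ℤ) := by
    rcases le_total 0 y with h | h
    · exact ⟨1, Or.inl rfl, by omega⟩
    · exact ⟨-1, Or.inr rfl, by omega⟩
  obtain ⟨cz0, hcz0⟩ := List.exists_mem_of_ne_nil roots hne
  by_cases h1 : 17 ≤ x.natAbs
  · refine ⟨false, sx, sy, hsx, hsy, cz0, hcz0, avoids_of_large hm (hZ _ hcz0) ?_⟩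
    simp only [sp, cond_false, hx]
    exact_mod_cast h1
  by_cases h2 : 17 ≤ y.natAbs
  · refine ⟨true, sy, sx, hsy, hsx, cz0, hcz0, avoids_of_large hm (hZ _ hcz0) ?_⟩
    simp only [sp, cond_true, hy]
    exact_mod_cast h2
  rw [coverOk, List.all_eq_true] at hcov
  have h3 := hcov x.natAbs (List.mem_range.2 (by omega))
  rw [List.all_eq_true] at h3
  have h4 := h3 y.natAbs (List.mem_range.2 (by omega))
  rw [Bool.or_eq_true] at h4
  rcases h4 with h4 | h4
  · exfalso
    rw [Bool.and_eq_true] at h4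
    have e1 : x.natAbs = 0 := Nat.eq_of_beq_eq_true h4.1
    have e2 : y.natAbs = 0 := Nat.eq_of_beq_eq_true h4.2
    apply hb
    ext
    · simpa using e1
    · simpa using e2
  · simp only [covered, List.any_eq_true] at h4
    obtain ⟨w, -, s, hs, t, ht, cz, hcz, hav⟩ := h4
    have hs' : s = 1 ∨ s = -1 := by simpa using hs
    have ht' : t = 1 ∨ t = -1 := by simpa using ht
    cases w
    · refine ⟨false, s * sx, t * sy, ?_, ?_, cz, hcz, ?_⟩
      · rcases hs' with rfl | rfl <;> rcases hsx with rfl | rfl <;> simp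
      · rcases ht' with rfl | rfl <;> rcases hsy with rfl | rfl <;> simp
      · simpa only [sp, cond_false, mul_assoc, hx, hy] using hav
    · refine ⟨true, s * sy, t * sx, ?_, ?_, cz, hcz, ?_⟩
      · rcases hs' with rfl | rfl <;> rcases hsy with rfl | rfl <;> simp
      · rcases ht' with rfl | rfl <;> rcases hsx with rfl | rfl <;> simp
      · simpa only [sp, cond_true, mul_assoc, hx, hy] using hav

/-- The root patterns cover every Breaker reply, so Maker wins on the empty board. -/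
theorem winsIn_of_roots {d m : ℕ} (hm : m ≤ 17 * 34) (roots : List (ℕ × ℕ))
    (hP : ∀ cz ∈ roots, PatT d (2 ^ cz.1) cz.2) (hZ : ∀ cz ∈ roots, cz.2 < 2 ^ m)
    (hne : roots ≠ []) (hcov : coverOk roots = true) : WinsIn (d + 1) ∅ ∅ := by
  refine Or.inr ⟨0, by simp, by simp, fun b hb _ => ?_⟩
  have hb0 : b ≠ 0 := by simpa using hb
  obtain ⟨w, s, t, hs, ht, ⟨c, Z⟩, hcz, hav⟩ := exists_avoids hm hZ hne hcov hb0
  obtain ⟨R, hR, hR0, hRb⟩ := sp_involutive_exists (w := w) hs ht b
  have hb0' : sp w s t b ≠ 0 := by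
    intro h
    apply hb0
    rw [← hRb, h, hR0]
  have key : WinsIn d {(0 : Cell)} {sp w s t b} := by
    refine hP _ hcz (-cellT c) _ _ ?_ ⟨fun i hi => ?_, fun i hi => ?_⟩
    · intro x hx
      rw [Finset.mem_singleton] at hx ⊢
      subst hx
      exact fun h => hb0' h.symm
    · simp only at hi
      have : c = i := by
        rw [Nat.testBit_two_pow, decide_eq_true_eq] at hi
        exact hi
      subst this
      simp
    · rw [Finset.mem_singleton]
      exact avoids_sound hav i hi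
  have := key.image hR
  simpa [hR0, hRb] using this

end Vale.Agent.P062
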