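import Mathlib

/-!
# The Snaky achievement game in the plane: definitions
-/

namespace Vale.Agent.P062

/-- A cell of the square grid, indexed by its lower-left corner. -/
abbrev Cell : Type := ℤ × ℤ

/-- The hexomino Snaky. -/
def snaky : Set Cell := {(0, 0), (1, 0), (2, 0), (3, 0), (3, 1), (4, 1)}

/-- `R` is the action of one of the eight `2 × 2` signed permutation matrices on cells:
`(x, y) ↦ (s x, t y)` or `(x, y) ↦ (s y, t x)` with signs `s` and `t`. -/
def IsSignedPermutation (R : Cell → Cell) : Prop :=
  ∃ s t : ℤ, (s = 1 ∨ s = -1) ∧ (t = 1 ∨ t = -1) ∧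
    ((∀ x y : ℤ, R (x, y) = (s * x, t * y)) ∨ (∀ x y : ℤ, R (x, y) = (s * y, t * x)))

/-- `A` is an allowed copy of Snaky: `A = t + R(S)` for a translation vector `t` and a signed
permutation matrix `R`. -/
def IsAllowedCopy (A : Set Cell) : Prop :=
  ∃ (R : Cell → Cell) (t : Cell), IsSignedPermutation R ∧ A = (fun p => t + R p) '' snaky

/-- The set `M` of Maker's cells contains every cell of some allowed copy. -/
def HasCopy (M : Finset Cell) : Prop :=
  ∃ A : Set Cell, IsAllowedCopy A ∧ A ⊆ (M : Set Cell)

/-- A strategy for Maker: `σ M B` is the cell Maker claims when it is Maker's turn, Maker owns the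
cells in `M` and Breaker owns the cells in `B`. -/
abbrev Strategy : Type := Finset Cell → Finset Cell → Cell

/-- The position (Maker's cells, Breaker's cells) after `n` turns of each player, on the initially
empty board, when Maker moves first and follows `σ`, and Breaker claims `b 0`, `b 1`, ... -/
def position (σ : Strategy) (b : ℕ → Cell) : ℕ → Finset Cell × Finset Cell
  | 0 => (∅, ∅)
  | n + 1 =>
    (insert (σ (position σ b n).1 (position σ b n).2) (position σ b n).1,
      insert (b n) (position σ b n).2)

/-- Breaker's moves `b 0`, `b 1`, ... are legal against `σ`: each claims a cell owned by nobody at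
that moment (after Maker's move of the same turn). -/
def LegalBreaker (σ : Strategy) (b : ℕ → Cell) : Prop :=
  ∀ n, b n ∉ (position σ b (n + 1)).1 ∧ b n ∉ (position σ b n).2

/-- Maker's moves according to `σ` are legal against Breaker's play `b`. -/
def LegalMaker (σ : Strategy) (b : ℕ → Cell) : Prop :=
  ∀ n, σ (position σ b n).1 (position σ b n).2 ∉ (position σ b n).1 ∧
    σ (position σ b n).1 (position σ b n).2 ∉ (position σ b n).2

end Vale.Agent.P062
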