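import Vale.Agent.P062.Defs

/-!
# Soundness of the pattern checker
-/

namespace Vale.Agent.P062

/-- Maker, to move, owns a copy after at most `n` further moves of its own. -/
def WinsIn : ℕ → Finset Cell → Finset Cell → Prop
  | 0, M, _ => HasCopy M
  | n + 1, M, B => HasCopy M ∨ ∃ c, c ∉ M ∧ c ∉ B ∧
      ∀ b, b ∉ insert c M → b ∉ B → WinsIn n (insert c M) (insert b B)

theorem HasCopy.mono {M M' : Finset Cell} (h : M ⊆ M') (hM : HasCopy M) : HasCopy M' := by
  obtain ⟨A, hA, hAM⟩ := hM
  exact ⟨A, hA, hAM.trans (by exact_mod_cast h)⟩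

theorem WinsIn.of_hasCopy {n : ℕ} {M B : Finset Cell} (h : HasCopy M) : WinsIn n M B := by
  cases n with
  | zero => exact h
  | succ n => exact Or.inl h

theorem WinsIn.succ {n : ℕ} {M B : Finset Cell} (h : WinsIn n M B) : WinsIn (n + 1) M B := by
  induction n generalizing M B with
  | zero => exact Or.inl h
  | succ n ih =>
    rcases h with h | ⟨c, hc, hcB, h⟩
    · exact Or.inl h
    · exact Or.inr ⟨c, hc, hcB, fun b hb hbB => ih (h b hb hbB)⟩

theorem WinsIn.mono {n m : ℕ} (hnm : n ≤ m) {M B : Finset Cell} (h : WinsIn n M B) :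
    WinsIn m M B := by
  induction hnm with
  | refl => exact h
  | step _ ih => exact ih.succ

/-- There is always a free cell. -/
theorem exists_free (M B : Finset Cell) : ∃ c, c ∉ M ∧ c ∉ B := by
  obtain ⟨c, hc⟩ := Infinite.exists_notMem_finset (M ∪ B)
  exact ⟨c, fun h => hc (Finset.mem_union_left _ h), fun h => hc (Finset.mem_union_right _ h)⟩

theorem exists_move (M B : Finset Cell) : ∃ c, c ∉ M ∧ c ∉ B ∧
    ∀ n, WinsIn (n + 1) M B → (∀ k ≤ n, ¬ WinsIn k M B) →
      ∀ b, b ∉ insert c M → b ∉ B → WinsIn n (insert c M) (insert b B) := by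
  classical
  by_cases h : ∃ n, WinsIn (n + 1) M B ∧ ∀ k ≤ n, ¬ WinsIn k M B
  · obtain ⟨n, hn, hk⟩ := h
    rcases hn with hn | ⟨c, hc, hcB, hw⟩
    · exact absurd (WinsIn.of_hasCopy hn) (hk n le_rfl)
    · refine ⟨c, hc, hcB, fun m hm hmk => ?_⟩
      have : m = n := by
        rcases lt_trichotomy m n with h1 | h1 | h1
        · exact absurd hm (hk (m + 1) h1)
        · exact h1
        · exact absurd (Or.inr ⟨c, hc, hcB, hw⟩ : WinsIn (n + 1) M B) (hmk (n + 1) h1)
      subst this
      exact hw
  · obtain ⟨c, hc, hcB⟩ := exists_free M B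
    exact ⟨c, hc, hcB, fun n hn hk => absurd ⟨n, hn, hk⟩ h⟩

/-- If Maker wins within `N` moves from the empty board, it has a winning strategy. -/
theorem exists_strategy {N : ℕ} (h : WinsIn N ∅ ∅) :
    ∃ σ : Strategy, ∀ b : ℕ → Cell, LegalBreaker σ b →
      LegalMaker σ b ∧ HasCopy (position σ b N).1 := by
  classical
  choose σ h1 h2 h3 using exists_move
  refine ⟨σ, fun b hb => ⟨fun n => ⟨h1 _ _, h2 _ _⟩, ?_⟩⟩
  have key : ∀ t, t ≤ N → WinsIn (N - t) (position σ b t).1 (position σ b t).2 := by
    intro t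
    induction t with
    | zero => intro _; simpa [position] using h
    | succ t ih =>
      intro ht
      have ih' := ih (by omega)
      set M := (position σ b t).1 with hM
      set B := (position σ b t).2 with hB
      have hex : ∃ n, WinsIn n M B := ⟨_, ih'⟩
      have hle : Nat.find hex ≤ N - t := Nat.find_min' hex ih'
      rcases hf : Nat.find hex with _ | n
      · have h0 : WinsIn 0 M B := hf ▸ Nat.find_spec hex
        refine WinsIn.of_hasCopy (HasCopy.mono ?_ h0)
        simp only [position]
        exact Finset.subset_insert _ _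
      · have hn : WinsIn (n + 1) M B := hf ▸ Nat.find_spec hex
        have hk : ∀ k ≤ n, ¬ WinsIn k M B := fun k hk => Nat.find_min hex (by omega)
        have hbt := hb t
        simp only [position] at hbt
        have := h3 M B n hn hk (b t) hbt.1 hbt.2
        refine WinsIn.mono (n := n) (by omega) ?_
        simpa only [position] using this
  have h0 := key N le_rfl
  rw [Nat.sub_self] at h0
  exact h0

end Vale.Agent.P062
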