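import Vale.Agent.P062.Sound

/-!
# Symmetry of the game under the eight signed permutations
-/

namespace Vale.Agent.P062

/-- The signed permutation with signs `s`, `t`; swapped if `w` is true. -/
def sp (w : Bool) (s t : ℤ) (p : Cell) : Cell :=
  bif w then (s * p.2, t * p.1) else (s * p.1, t * p.2)

theorem sp_isSignedPermutation {w : Bool} {s t : ℤ} (hs : s = 1 ∨ s = -1) (ht : t = 1 ∨ t = -1) :
    IsSignedPermutation (sp w s t) := by
  refine ⟨s, t, hs, ht, ?_⟩
  cases w
  · exact Or.inl fun x y => rfl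
  · exact Or.inr fun x y => rfl

theorem IsSignedPermutation.exists_eq {R : Cell → Cell} (h : IsSignedPermutation R) :
    ∃ w s t, (s = 1 ∨ s = -1) ∧ (t = 1 ∨ t = -1) ∧ R = sp w s t := by
  obtain ⟨s, t, hs, ht, h | h⟩ := h
  · exact ⟨false, s, t, hs, ht, funext fun p => h p.1 p.2⟩
  · exact ⟨true, s, t, hs, ht, funext fun p => h p.1 p.2⟩

theorem IsSignedPermutation.comp {R R' : Cell → Cell} (h : IsSignedPermutation R)
    (h' : IsSignedPermutation R') : IsSignedPermutation (R ∘ R') := by
  obtain ⟨s, t, hs, ht, h⟩ := h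
  obtain ⟨s', t', hs', ht', h'⟩ := h'
  rcases h with h | h <;> rcases h' with h' | h'
  · refine ⟨s * s', t * t', ?_, ?_, Or.inl fun x y => ?_⟩
    · rcases hs with rfl | rfl <;> rcases hs' with rfl | rfl <;> simp
    · rcases ht with rfl | rfl <;> rcases ht' with rfl | rfl <;> simp
    · simp only [Function.comp_apply, h', h, mul_assoc]
  · refine ⟨s * s', t * t', ?_, ?_, Or.inr fun x y => ?_⟩
    · rcases hs with rfl | rfl <;> rcases hs' with rfl | rfl <;> simp
    · rcases ht with rfl | rfl <;> rcases ht' with rfl | rfl <;> simp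
    · simp only [Function.comp_apply, h', h, mul_assoc]
  · refine ⟨s * t', t * s', ?_, ?_, Or.inr fun x y => ?_⟩
    · rcases hs with rfl | rfl <;> rcases ht' with rfl | rfl <;> simp
    · rcases ht with rfl | rfl <;> rcases hs' with rfl | rfl <;> simp
    · simp only [Function.comp_apply, h', h, mul_assoc]
  · refine ⟨s * t', t * s', ?_, ?_, Or.inl fun x y => ?_⟩
    · rcases hs with rfl | rfl <;> rcases ht' with rfl | rfl <;> simp
    · rcases ht with rfl | rfl <;> rcases hs' with rfl | rfl <;> simp
    · simp only [Function.comp_apply, h', h, mul_assoc]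

theorem IsSignedPermutation.map_add {R : Cell → Cell} (h : IsSignedPermutation R) (p q : Cell) :
    R (p + q) = R p + R q := by
  obtain ⟨x, y⟩ := p
  obtain ⟨x', y'⟩ := q
  obtain ⟨s, t, -, -, h⟩ := h
  rcases h with h | h
  · simp only [Prod.mk_add_mk, h, mul_add]
  · simp only [Prod.mk_add_mk, h, mul_add]

theorem sp_injective {w : Bool} {s t : ℤ} (hs : s = 1 ∨ s = -1) (ht : t = 1 ∨ t = -1) :
    Function.Injective (sp w s t) := by
  rintro ⟨a, b⟩ ⟨c, d⟩ h
  cases w
  · simp only [sp, cond_false, Prod.mk.injEq] at h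
    obtain ⟨h1, h2⟩ := h
    rcases hs with rfl | rfl <;> rcases ht with rfl | rfl <;> ext <;> simp <;> omega
  · simp only [sp, cond_true, Prod.mk.injEq] at h
    obtain ⟨h1, h2⟩ := h
    rcases hs with rfl | rfl <;> rcases ht with rfl | rfl <;> ext <;> simp <;> omega

theorem sp_surjective {w : Bool} {s t : ℤ} (hs : s = 1 ∨ s = -1) (ht : t = 1 ∨ t = -1) :
    Function.Surjective (sp w s t) := by
  rintro ⟨a, b⟩
  cases w
  · refine ⟨(s * a, t * b), ?_⟩
    rcases hs with rfl | rfl <;> rcases ht with rfl | rfl <;> simp [sp]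
  · refine ⟨(t * b, s * a), ?_⟩
    rcases hs with rfl | rfl <;> rcases ht with rfl | rfl <;> simp [sp]

theorem IsSignedPermutation.injective {R : Cell → Cell} (h : IsSignedPermutation R) :
    Function.Injective R := by
  obtain ⟨w, s, t, hs, ht, rfl⟩ := h.exists_eq
  exact sp_injective hs ht

theorem IsSignedPermutation.surjective {R : Cell → Cell} (h : IsSignedPermutation R) :
    Function.Surjective R := by
  obtain ⟨w, s, t, hs, ht, rfl⟩ := h.exists_eq
  exact sp_surjective hs ht

theorem HasCopy.image {M : Finset Cell} (h : HasCopy M) {R : Cell → Cell}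
    (hR : IsSignedPermutation R) : HasCopy (M.image R) := by
  obtain ⟨A, ⟨R', t, hR', rfl⟩, hAM⟩ := h
  refine ⟨_, ⟨R ∘ R', R t, hR.comp hR', rfl⟩, ?_⟩
  rintro _ ⟨p, hp, rfl⟩
  have h1 : t + R' p ∈ (M : Set Cell) := hAM ⟨p, hp, rfl⟩
  have h2 : R t + (R ∘ R') p = R (t + R' p) := by rw [hR.map_add]; rfl
  simp only
  rw [h2]
  exact Finset.mem_coe.2 (Finset.mem_image_of_mem R (Finset.mem_coe.1 h1))

theorem WinsIn.image {R : Cell → Cell} (hR : IsSignedPermutation R) {n : ℕ} {M B : Finset Cell}
    (h : WinsIn n M B) : WinsIn n (M.image R) (B.image R) := by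
  induction n generalizing M B with
  | zero => exact HasCopy.image h hR
  | succ n ih =>
    rcases h with h | ⟨c, hc, hcB, h⟩
    · exact Or.inl (h.image hR)
    · refine Or.inr ⟨R c, ?_, ?_, fun b hb hbB => ?_⟩
      · intro hmem
        obtain ⟨x, hx, hxc⟩ := Finset.mem_image.1 hmem
        exact hc (hR.injective hxc ▸ hx)
      · intro hmem
        obtain ⟨x, hx, hxc⟩ := Finset.mem_image.1 hmem
        exact hcB (hR.injective hxc ▸ hx)
      · obtain ⟨b', rfl⟩ := hR.surjective b
        have h1 : b' ∉ insert c M := by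
          intro hmem
          apply hb
          rcases Finset.mem_insert.1 hmem with rfl | hmem
          · exact Finset.mem_insert_self _ _
          · exact Finset.mem_insert_of_mem (Finset.mem_image_of_mem R hmem)
        have h2 : b' ∉ B := fun hmem => hbB (Finset.mem_image_of_mem R hmem)
        have := ih (h b' h1 h2)
        rwa [Finset.image_insert, Finset.image_insert] at this

end Vale.Agent.P062
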